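import Crest.Agent.Helper75.OT.Defs

/-!
# Row 82 (S0109), WP-L3 (first item) : the supergradient inequality of `Mval` in the masses — core

`Mval_eq_integral_lagPot_core` :  `Mval K S w = ∫ lagPot S w dρ + ∑_c gM_c(w) * w c`
`Mval_le_integral_lagPot_core` :  `Mval K S v ≤ ∫ lagPot S w dρ + ∑_c gM_c(v) * w c`  (any `v`)
`Mval_mass_le_core`            :  the Spec statement `Mval_mass_le`.

The few facts on the source measure and on the cells that are needed (finite measure carried by
the compact set `K`, measurable cells, integrals split over the cells) are explicit hypotheses, so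
that this file depends only on `Defs`.  The Spec-form statement is in `MvalMass.lean`.

Proof (Fenchel–Young on cells): on the cell of `c` for the weights `v`,
`⟪x, c⟫ ≤ lagPot S w x + w c`, with equality if `v = w`.
-/

set_option autoImplicit false

noncomputable section

open MeasureTheory Filter Topology
open scoped ENNReal NNReal RealInnerProductSpace

namespace Crest.Agent.Helper75.OT

open Crest.AnalysisR.OT

variable {d : ℕ}

namespace MvalMassAux

theorem lagPot_of_nonempty {S : Finset (E d)} (hS : S.Nonempty) (w : E d → ℝ) (x : E d) :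
    lagPot S w x = S.sup' hS (fun c => ⟪x, c⟫ - w c) := by
  show (if h : S.Nonempty then S.sup' h (fun c => ⟪x, c⟫ - w c) else 0) = _
  rw [dif_pos hS]

theorem le_lagPot' {S : Finset (E d)} (w : E d → ℝ) {c : E d} (hc : c ∈ S) (x : E d) :
    ⟪x, c⟫ - w c ≤ lagPot S w x := by
  have hS : S.Nonempty := ⟨c, hc⟩
  rw [lagPot_of_nonempty hS]
  exact Finset.le_sup' (fun c => ⟪x, c⟫ - w c) hc

theorem lagPot_eq_of_mem' {K : Set (E d)} {S : Finset (E d)} {w : E d → ℝ} {c x : E d}
    (hc : c ∈ S) (hx : x ∈ Lag K S w c) : lagPot S w x = ⟪x, c⟫ - w c := by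
  have hS : S.Nonempty := ⟨c, hc⟩
  apply le_antisymm _ (le_lagPot' w hc x)
  rw [lagPot_of_nonempty hS, Finset.sup'_le_iff]
  exact fun c' hc' => hx.2 c' hc'

theorem continuous_lagPot (S : Finset (E d)) (w : E d → ℝ) : Continuous (lagPot S w) := by
  rcases S.eq_empty_or_nonempty with hS | hS
  · have : lagPot S w = fun _ => 0 := by
      funext x
      show (if h : S.Nonempty then S.sup' h (fun c => ⟪x, c⟫ - w c) else 0) = 0
      rw [dif_neg (Finset.not_nonempty_iff_eq_empty.mpr hS)]
    rw [this]; exact continuous_const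
  · have : lagPot S w = fun x => S.sup' hS (fun c => ⟪x, c⟫ - w c) := by
      funext x; exact lagPot_of_nonempty hS w x
    rw [this]
    apply Continuous.finset_sup'_apply
    intro c _
    fun_prop

/-- A continuous function is integrable for a finite measure carried by a compact set. -/
theorem integrable_of_continuous {K : Set (E d)} (hKc : IsCompact K)
    (hfin : IsFiniteMeasure (uniformProbOn K)) (hcompl : (uniformProbOn K) Kᶜ = 0)
    {F : Type} [NormedAddCommGroup F] (f : E d → F) (hf : Continuous f) :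
    Integrable f (uniformProbOn K) := by
  obtain ⟨C, hC⟩ := hKc.exists_bound_of_continuousOn hf.continuousOn
  refine Integrable.of_bound hf.aestronglyMeasurable C ?_
  have hae : ∀ᵐ x ∂(uniformProbOn K), x ∉ Kᶜ := measure_eq_zero_iff_ae_notMem.mp hcompl
  filter_upwards [hae] with x hx
  exact hC x (by simpa using hx)

end MvalMassAux

open MvalMassAux

/-- `Mval K S v ≤ ∫ lagPot S w dρ + ∑_c gM_c(v) * w c` for arbitrary weights `v`, `w`. -/
theorem Mval_le_integral_lagPot_core {K : Set (E d)} (hKc : IsCompact K)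
    (hfin : IsFiniteMeasure (uniformProbOn K)) (hcompl : (uniformProbOn K) Kᶜ = 0)
    (S : Finset (E d))
    (hmeas : ∀ (v : E d → ℝ) (c : E d), MeasurableSet (Lag K S v c))
    (hsplit : ∀ (v : E d → ℝ) (f : E d → ℝ), Integrable f (uniformProbOn K) →
      ∑ c ∈ S, ∫ x in Lag K S v c, f x ∂(uniformProbOn K) = ∫ x, f x ∂(uniformProbOn K))
    (v w : E d → ℝ) :
    Mval K S v ≤ ∫ x, lagPot S w x ∂(uniformProbOn K) + ∑ c ∈ S, gM K S v c * w c := by
  have hid : Integrable (fun x : E d => x) (uniformProbOn K) :=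
    integrable_of_continuous hKc hfin hcompl _ continuous_id
  have hpot : Integrable (lagPot S w) (uniformProbOn K) :=
    integrable_of_continuous hKc hfin hcompl _ (continuous_lagPot S w)
  have hinner : ∀ c : E d, Integrable (fun x : E d => ⟪x, c⟫) (uniformProbOn K) := fun c =>
    integrable_of_continuous hKc hfin hcompl _ (by fun_prop)
  -- termwise bound
  have hterm : ∀ c ∈ S, ⟪mM K S v c, c⟫
      ≤ ∫ x in Lag K S v c, lagPot S w x ∂(uniformProbOn K) + gM K S v c * w c := by
    intro c hc
    have e1 : ⟪mM K S v c, c⟫ = ∫ x in Lag K S v c, ⟪x, c⟫ ∂(uniformProbOn K) := by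
      show ⟪∫ x in Lag K S v c, x ∂(uniformProbOn K), c⟫ = _
      rw [real_inner_comm, ← integral_inner hid.integrableOn c]
      refine integral_congr_ae (Eventually.of_forall fun x => ?_)
      exact real_inner_comm _ _
    have e2 : ∫ x in Lag K S v c, (lagPot S w x + w c) ∂(uniformProbOn K)
        = ∫ x in Lag K S v c, lagPot S w x ∂(uniformProbOn K) + gM K S v c * w c := by
      rw [integral_add hpot.integrableOn (integrable_const _), setIntegral_const]
      rfl
    rw [e1, ← e2]
    refine setIntegral_mono_on (hinner c).integrableOn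
      (hpot.integrableOn.add (integrable_const _)) (hmeas v c) (fun x _ => ?_)
    have := le_lagPot' w hc x
    linarith
  calc Mval K S v = ∑ c ∈ S, ⟪mM K S v c, c⟫ := rfl
    _ ≤ ∑ c ∈ S, (∫ x in Lag K S v c, lagPot S w x ∂(uniformProbOn K) + gM K S v c * w c) :=
        Finset.sum_le_sum hterm
    _ = ∫ x, lagPot S w x ∂(uniformProbOn K) + ∑ c ∈ S, gM K S v c * w c := by
        rw [Finset.sum_add_distrib, hsplit v (lagPot S w) hpot]

/-- `Mval K S w = ∫ lagPot S w dρ + ∑_c gM_c(w) * w c` (semi-discrete Kantorovich duality). -/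
theorem Mval_eq_integral_lagPot_core {K : Set (E d)} (hKc : IsCompact K)
    (hfin : IsFiniteMeasure (uniformProbOn K)) (hcompl : (uniformProbOn K) Kᶜ = 0)
    (S : Finset (E d))
    (hmeas : ∀ (v : E d → ℝ) (c : E d), MeasurableSet (Lag K S v c))
    (hsplit : ∀ (v : E d → ℝ) (f : E d → ℝ), Integrable f (uniformProbOn K) →
      ∑ c ∈ S, ∫ x in Lag K S v c, f x ∂(uniformProbOn K) = ∫ x, f x ∂(uniformProbOn K))
    (w : E d → ℝ) :
    Mval K S w = ∫ x, lagPot S w x ∂(uniformProbOn K) + ∑ c ∈ S, gM K S w c * w c := by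
  have hid : Integrable (fun x : E d => x) (uniformProbOn K) :=
    integrable_of_continuous hKc hfin hcompl _ continuous_id
  have hpot : Integrable (lagPot S w) (uniformProbOn K) :=
    integrable_of_continuous hKc hfin hcompl _ (continuous_lagPot S w)
  have hterm : ∀ c ∈ S, ⟪mM K S w c, c⟫
      = ∫ x in Lag K S w c, lagPot S w x ∂(uniformProbOn K) + gM K S w c * w c := by
    intro c hc
    have e1 : ⟪mM K S w c, c⟫ = ∫ x in Lag K S w c, ⟪x, c⟫ ∂(uniformProbOn K) := by
      show ⟪∫ x in Lag K S w c, x ∂(uniformProbOn K), c⟫ = _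
      rw [real_inner_comm, ← integral_inner hid.integrableOn c]
      refine integral_congr_ae (Eventually.of_forall fun x => ?_)
      exact real_inner_comm _ _
    have e2 : ∫ x in Lag K S w c, (lagPot S w x + w c) ∂(uniformProbOn K)
        = ∫ x in Lag K S w c, lagPot S w x ∂(uniformProbOn K) + gM K S w c * w c := by
      rw [integral_add hpot.integrableOn (integrable_const _), setIntegral_const]
      rfl
    rw [e1, ← e2]
    refine setIntegral_congr_fun (hmeas w c) (fun x hx => ?_)
    have := lagPot_eq_of_mem' hc hx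
    linarith
  calc Mval K S w = ∑ c ∈ S, ⟪mM K S w c, c⟫ := rfl
    _ = ∑ c ∈ S, (∫ x in Lag K S w c, lagPot S w x ∂(uniformProbOn K) + gM K S w c * w c) :=
        Finset.sum_congr rfl hterm
    _ = ∫ x, lagPot S w x ∂(uniformProbOn K) + ∑ c ∈ S, gM K S w c * w c := by
        rw [Finset.sum_add_distrib, hsplit w (lagPot S w) hpot]

/-- Supergradient inequality in the masses — core form of `Spec.Mval_mass_le`. -/
theorem Mval_mass_le_core {K : Set (E d)} (hKc : IsCompact K)
    (hfin : IsFiniteMeasure (uniformProbOn K)) (hcompl : (uniformProbOn K) Kᶜ = 0)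
    (S : Finset (E d))
    (hmeas : ∀ (v : E d → ℝ) (c : E d), MeasurableSet (Lag K S v c))
    (hsplit : ∀ (v : E d → ℝ) (f : E d → ℝ), Integrable f (uniformProbOn K) →
      ∑ c ∈ S, ∫ x in Lag K S v c, f x ∂(uniformProbOn K) = ∫ x, f x ∂(uniformProbOn K))
    (g g' w w' : E d → ℝ) (hw : IsLagWeights K S g w) (hw' : IsLagWeights K S g' w') :
    Mval K S w' ≤ Mval K S w + ∑ c ∈ S, (g' c - g c) * w c := by
  have h1 := Mval_le_integral_lagPot_core hKc hfin hcompl S hmeas hsplit w' w
  have h2 := Mval_eq_integral_lagPot_core hKc hfin hcompl S hmeas hsplit w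
  have e1 : ∑ c ∈ S, gM K S w' c * w c = ∑ c ∈ S, g' c * w c :=
    Finset.sum_congr rfl (fun c hc => by rw [hw' c hc])
  have e2 : ∑ c ∈ S, gM K S w c * w c = ∑ c ∈ S, g c * w c :=
    Finset.sum_congr rfl (fun c hc => by rw [hw c hc])
  have e3 : ∑ c ∈ S, (g' c - g c) * w c = ∑ c ∈ S, g' c * w c - ∑ c ∈ S, g c * w c := by
    rw [← Finset.sum_sub_distrib]
    exact Finset.sum_congr rfl (fun c _ => by ring)
  rw [e1] at h1
  rw [e2] at h2
  rw [e3, h2]
  linarith

end Crest.Agent.Helper75.OT
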