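import Crest.Agent.Helper66.OT.Interface

/-!
# Row 82 (S0109), package (D), last step: the ENNReal assembly

`final_step` : from
* the interpolation inequality `InterpA K M C_A` (package (A)),
* potentials `φ`, `ψ` continuous on `K` of which the maps `Tμ`, `Tν` (pushing the uniform measure
  on `K` to `μ`, `ν`, both carried by `Y ⊆ closedBall 0 M`) are a.e. subgradient selections,
* the potential stability bound `∫ (φ - ψ)² dρ ≤ C₁ * (quadCost π).toReal`,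

to the conclusion of S0109 for this pair:
`∫⁻ ‖Tμ - Tν‖ₑ² dρ ≤ ofReal (C_A * V^(-2/3) * C₁^(1/3)) * quadCost π ^ (1/3)`, `V = volume K`.

By-products in `FinalAux`: `quadCost_lt_top`, `ae_norm_le_of_map`, `rho_prob`, `ae_rho_iff`.
Only Mathlib, the Prelude and `Helper66/OT/Interface.lean` are used.
-/

set_option autoImplicit false

noncomputable section

open MeasureTheory
open scoped ENNReal NNReal
open Crest.AnalysisR.OT

namespace Crest.Agent.Helper66.OT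

namespace FinalAux

variable {d : ℕ}

theorem vol_ne_zero {K : Set (EuclideanSpace ℝ (Fin d))} (hKi : (interior K).Nonempty) :
    volume K ≠ 0 :=
  ((isOpen_interior.measure_pos volume hKi).trans_le (measure_mono interior_subset)).ne'

theorem vol_ne_top {K : Set (EuclideanSpace ℝ (Fin d))} (hKc : IsCompact K) : volume K ≠ ⊤ :=
  hKc.measure_lt_top.ne

theorem vol_toReal_pos {K : Set (EuclideanSpace ℝ (Fin d))} (hKc : IsCompact K)
    (hKi : (interior K).Nonempty) : 0 < (volume K).toReal :=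
  ENNReal.toReal_pos (vol_ne_zero hKi) (vol_ne_top hKc)

theorem rho_eq (K : Set (EuclideanSpace ℝ (Fin d))) :
    uniformProbOn K = (volume K)⁻¹ • volume.restrict K := rfl

theorem rho_prob {K : Set (EuclideanSpace ℝ (Fin d))} (hKc : IsCompact K)
    (hKi : (interior K).Nonempty) : IsProbabilityMeasure (uniformProbOn K) := by
  refine ⟨?_⟩
  rw [rho_eq, Measure.smul_apply, Measure.restrict_apply MeasurableSet.univ, Set.univ_inter,
    smul_eq_mul]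
  exact ENNReal.inv_mul_cancel (vol_ne_zero hKi) (vol_ne_top hKc)

/-- `ρ`-a.e. is the same as a.e. on `K` for Lebesgue measure. -/
theorem ae_rho_iff {K : Set (EuclideanSpace ℝ (Fin d))} (hKc : IsCompact K)
    {p : EuclideanSpace ℝ (Fin d) → Prop} :
    (∀ᵐ x ∂(uniformProbOn K), p x) ↔ ∀ᵐ x ∂(volume.restrict K), p x := by
  rw [ae_iff, ae_iff, rho_eq, Measure.smul_apply, smul_eq_mul, mul_eq_zero]
  constructor
  · rintro (h | h)
    · exact absurd (ENNReal.inv_eq_zero.mp h) (vol_ne_top hKc)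
    · exact h
  · exact fun h => Or.inr h

/-- Integrals against `ρ` in terms of integrals over `K`. -/
theorem integral_rho (K : Set (EuclideanSpace ℝ (Fin d))) (f : EuclideanSpace ℝ (Fin d) → ℝ) :
    ∫ x, f x ∂(uniformProbOn K) = (volume K).toReal⁻¹ * ∫ x in K, f x := by
  rw [rho_eq, integral_smul_measure, ENNReal.toReal_inv, smul_eq_mul]

/-- A map pushing `ρ` to a measure carried by `Y ⊆ closedBall 0 M` is a.e. bounded by `M`. -/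
theorem ae_norm_le_of_map {α : Type*} [MeasurableSpace α] {ρ : Measure α}
    {μ : Measure (EuclideanSpace ℝ (Fin d))}
    {Y : Set (EuclideanSpace ℝ (Fin d))} (hYm : MeasurableSet Y) {M : ℝ}
    (hYM : ∀ y ∈ Y, ‖y‖ ≤ M) (hμ : μ Yᶜ = 0)
    {T : α → EuclideanSpace ℝ (Fin d)} (hT : Measurable T)
    (hp : ρ.map T = μ) : ∀ᵐ x ∂ρ, ‖T x‖ ≤ M := by
  have h0 : ρ (T ⁻¹' Yᶜ) = 0 := by
    rw [← Measure.map_apply hT hYm.compl, hp, hμ]
  have hae : ∀ᵐ x ∂ρ, x ∉ T ⁻¹' Yᶜ := measure_eq_zero_iff_ae_notMem.mp h0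
  filter_upwards [hae] with x hx
  apply hYM
  simpa using hx

/-- The quadratic cost of a coupling of two probability measures carried by a bounded set is
finite. -/
theorem quadCost_le {μ ν : Measure (EuclideanSpace ℝ (Fin d))}
    {Y : Set (EuclideanSpace ℝ (Fin d))} (hYm : MeasurableSet Y) {M : ℝ}
    (hYM : ∀ y ∈ Y, ‖y‖ ≤ M) (hμ : IsProbabilityOn Y μ) (hν : IsProbabilityOn Y ν)
    {π : Measure (EuclideanSpace ℝ (Fin d) × EuclideanSpace ℝ (Fin d))}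
    (hπ : IsPairCoupling μ ν π) : quadCost π ≤ ENNReal.ofReal ((2 * M) ^ 2) := by
  have h1 : ∀ᵐ p ∂π, ‖p.1‖ ≤ M :=
    ae_norm_le_of_map hYm hYM hμ.2 measurable_fst hπ.1
  have h2 : ∀ᵐ p ∂π, ‖p.2‖ ≤ M :=
    ae_norm_le_of_map hYm hYM hν.2 measurable_snd hπ.2
  have hπuniv : π Set.univ = 1 := by
    have := hμ.1.measure_univ
    rw [← hπ.1, Measure.map_apply measurable_fst MeasurableSet.univ] at this
    simpa using this
  have hle : ∀ᵐ p ∂π, ‖p.1 - p.2‖ₑ ^ 2 ≤ ENNReal.ofReal ((2 * M) ^ 2) := by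
    filter_upwards [h1, h2] with p hp1 hp2
    have hn : ‖p.1 - p.2‖ ≤ 2 * M := by
      calc ‖p.1 - p.2‖ ≤ ‖p.1‖ + ‖p.2‖ := norm_sub_le _ _
        _ ≤ 2 * M := by linarith
    have hM : 0 ≤ 2 * M := le_trans (norm_nonneg _) hn
    rw [← ofReal_norm, ← ENNReal.ofReal_pow (norm_nonneg _)]
    exact ENNReal.ofReal_le_ofReal (pow_le_pow_left₀ (norm_nonneg _) hn 2)
  calc quadCost π = ∫⁻ p, ‖p.1 - p.2‖ₑ ^ 2 ∂π := rfl
    _ ≤ ∫⁻ _p, ENNReal.ofReal ((2 * M) ^ 2) ∂π := lintegral_mono_ae hle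
    _ = ENNReal.ofReal ((2 * M) ^ 2) := by rw [lintegral_const, hπuniv, mul_one]

theorem quadCost_lt_top {μ ν : Measure (EuclideanSpace ℝ (Fin d))}
    {Y : Set (EuclideanSpace ℝ (Fin d))} (hYm : MeasurableSet Y) {M : ℝ}
    (hYM : ∀ y ∈ Y, ‖y‖ ≤ M) (hμ : IsProbabilityOn Y μ) (hν : IsProbabilityOn Y ν)
    {π : Measure (EuclideanSpace ℝ (Fin d) × EuclideanSpace ℝ (Fin d))}
    (hπ : IsPairCoupling μ ν π) : quadCost π < ⊤ :=
  (quadCost_le hYm hYM hμ hν hπ).trans_lt ENNReal.ofReal_lt_top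

end FinalAux

open FinalAux

/-- **Step 5 of package (D)**: the ENNReal assembly. -/
theorem final_step {d : ℕ} (K : Set (EuclideanSpace ℝ (Fin d))) (hKc : IsCompact K)
    (hKi : (interior K).Nonempty)
    (Y : Set (EuclideanSpace ℝ (Fin d))) (hYc : IsCompact Y) (M : ℝ)
    (hYM : ∀ y ∈ Y, ‖y‖ ≤ M) (C_A : ℝ) (hCA : 0 ≤ C_A) (hA : InterpA K M C_A) (C₁ : ℝ)
    (hC₁ : 0 ≤ C₁)
    (μ ν : Measure (EuclideanSpace ℝ (Fin d))) (hμ : IsProbabilityOn Y μ)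
    (hν : IsProbabilityOn Y ν)
    (Tμ Tν : EuclideanSpace ℝ (Fin d) → EuclideanSpace ℝ (Fin d)) (hTμ : Measurable Tμ)
    (hTν : Measurable Tν) (hpμ : (uniformProbOn K).map Tμ = μ)
    (hpν : (uniformProbOn K).map Tν = ν)
    (φ ψ : EuclideanSpace ℝ (Fin d) → ℝ) (hφ : ContinuousOn φ K) (hψ : ContinuousOn ψ K)
    (hsμ : ∀ᵐ x ∂(uniformProbOn K), ∀ z ∈ K, φ x + inner ℝ (Tμ x) (z - x) ≤ φ z)
    (hsν : ∀ᵐ x ∂(uniformProbOn K), ∀ z ∈ K, ψ x + inner ℝ (Tν x) (z - x) ≤ ψ z)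
    (π : Measure (EuclideanSpace ℝ (Fin d) × EuclideanSpace ℝ (Fin d)))
    (hπ : IsPairCoupling μ ν π)
    (hB : ∫ x, (φ x - ψ x) ^ 2 ∂(uniformProbOn K) ≤ C₁ * (quadCost π).toReal) :
    ∫⁻ x, ‖Tμ x - Tν x‖ₑ ^ 2 ∂(uniformProbOn K)
      ≤ ENNReal.ofReal (C_A * ((volume K).toReal) ^ (-(2 / 3 : ℝ)) * C₁ ^ (1 / 3 : ℝ))
          * quadCost π ^ (1 / 3 : ℝ) := by
  have hprob : IsProbabilityMeasure (uniformProbOn K) := rho_prob hKc hKi
  have hYm : MeasurableSet Y := hYc.measurableSet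
  set V : ℝ := (volume K).toReal with hV
  have hVpos : 0 < V := vol_toReal_pos hKc hKi
  -- a.e. bounds
  have hbμ : ∀ᵐ x ∂(uniformProbOn K), ‖Tμ x‖ ≤ M := ae_norm_le_of_map hYm hYM hμ.2 hTμ hpμ
  have hbν : ∀ᵐ x ∂(uniformProbOn K), ‖Tν x‖ ≤ M := ae_norm_le_of_map hYm hYM hν.2 hTν hpν
  -- the interpolation inequality
  have hI := hA φ ψ Tμ Tν hφ hψ hTμ hTν ((ae_rho_iff hKc).mp hbμ) ((ae_rho_iff hKc).mp hbν)
    ((ae_rho_iff hKc).mp hsμ) ((ae_rho_iff hKc).mp hsν)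
  -- rewrite both sides with `ρ`
  have e1 : ∫ x in K, ‖Tμ x - Tν x‖ ^ 2 = V * ∫ x, ‖Tμ x - Tν x‖ ^ 2 ∂(uniformProbOn K) := by
    rw [integral_rho, ← hV]; field_simp
  have e2 : ∫ x in K, (φ x - ψ x) ^ 2 = V * ∫ x, (φ x - ψ x) ^ 2 ∂(uniformProbOn K) := by
    rw [integral_rho, ← hV]; field_simp
  rw [e1, e2] at hI
  set J : ℝ := ∫ x, ‖Tμ x - Tν x‖ ^ 2 ∂(uniformProbOn K) with hJ
  set I : ℝ := ∫ x, (φ x - ψ x) ^ 2 ∂(uniformProbOn K) with hI'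
  set q : ℝ := (quadCost π).toReal with hq
  have hq0 : 0 ≤ q := ENNReal.toReal_nonneg
  have hI0 : 0 ≤ I := integral_nonneg (fun x => sq_nonneg _)
  -- real inequality `J ≤ C_A * V^(-2/3) * C₁^(1/3) * q^(1/3)`
  have hreal : J ≤ C_A * V ^ (-(2 / 3 : ℝ)) * C₁ ^ (1 / 3 : ℝ) * q ^ (1 / 3 : ℝ) := by
    have h1 : (V * I) ^ (1 / 3 : ℝ) ≤ (V * (C₁ * q)) ^ (1 / 3 : ℝ) :=
      Real.rpow_le_rpow (mul_nonneg hVpos.le hI0)
        (mul_le_mul_of_nonneg_left hB hVpos.le) (by norm_num)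
    have h2 : (V * (C₁ * q)) ^ (1 / 3 : ℝ)
        = V ^ (1 / 3 : ℝ) * (C₁ ^ (1 / 3 : ℝ) * q ^ (1 / 3 : ℝ)) := by
      rw [Real.mul_rpow hVpos.le (mul_nonneg hC₁ hq0), Real.mul_rpow hC₁ hq0]
    have h3 : V * J ≤ C_A * (V ^ (1 / 3 : ℝ) * (C₁ ^ (1 / 3 : ℝ) * q ^ (1 / 3 : ℝ))) := by
      calc V * J ≤ C_A * (V * I) ^ (1 / 3 : ℝ) := hI
        _ ≤ C_A * (V * (C₁ * q)) ^ (1 / 3 : ℝ) := mul_le_mul_of_nonneg_left h1 hCA
        _ = _ := by rw [h2]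
    have h4 : V ^ (-(2 / 3 : ℝ)) = V⁻¹ * V ^ (1 / 3 : ℝ) := by
      rw [← Real.rpow_neg_one, ← Real.rpow_add hVpos]
      norm_num
    rw [h4]
    have h5 : J = V⁻¹ * (V * J) := by field_simp
    rw [h5]
    calc V⁻¹ * (V * J)
        ≤ V⁻¹ * (C_A * (V ^ (1 / 3 : ℝ) * (C₁ ^ (1 / 3 : ℝ) * q ^ (1 / 3 : ℝ)))) :=
          mul_le_mul_of_nonneg_left h3 (inv_nonneg.mpr hVpos.le)
      _ = C_A * (V⁻¹ * V ^ (1 / 3 : ℝ)) * C₁ ^ (1 / 3 : ℝ) * q ^ (1 / 3 : ℝ) := by ring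
  -- integrability of the squared distance
  have hmeas : Measurable (fun x => ‖Tμ x - Tν x‖ ^ 2) := (hTμ.sub hTν).norm.pow_const 2
  have hint : Integrable (fun x => ‖Tμ x - Tν x‖ ^ 2) (uniformProbOn K) := by
    refine Integrable.of_bound hmeas.aestronglyMeasurable ((2 * |M|) ^ 2) ?_
    filter_upwards [hbμ, hbν] with x h1 h2
    have hn : ‖Tμ x - Tν x‖ ≤ 2 * |M| := by
      calc ‖Tμ x - Tν x‖ ≤ ‖Tμ x‖ + ‖Tν x‖ := norm_sub_le _ _
        _ ≤ 2 * |M| := by linarith [le_abs_self M]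
    rw [Real.norm_eq_abs, abs_of_nonneg (sq_nonneg _)]
    exact pow_le_pow_left₀ (norm_nonneg _) hn 2
  -- the ENNReal conversion
  have hqfin : quadCost π ≠ ⊤ := (quadCost_lt_top hYm hYM hμ hν hπ).ne
  have hL : ∫⁻ x, ‖Tμ x - Tν x‖ₑ ^ 2 ∂(uniformProbOn K) = ENNReal.ofReal J := by
    rw [hJ, ofReal_integral_eq_lintegral_ofReal hint
      (Filter.Eventually.of_forall fun x => sq_nonneg _)]
    refine lintegral_congr (fun x => ?_)
    rw [ENNReal.ofReal_pow (norm_nonneg _), ofReal_norm]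
  have hR : ENNReal.ofReal (C_A * V ^ (-(2 / 3 : ℝ)) * C₁ ^ (1 / 3 : ℝ)) * quadCost π ^ (1 / 3 : ℝ)
      = ENNReal.ofReal (C_A * V ^ (-(2 / 3 : ℝ)) * C₁ ^ (1 / 3 : ℝ) * q ^ (1 / 3 : ℝ)) := by
    have hc : 0 ≤ C_A * V ^ (-(2 / 3 : ℝ)) * C₁ ^ (1 / 3 : ℝ) :=
      mul_nonneg (mul_nonneg hCA (Real.rpow_nonneg hVpos.le _)) (Real.rpow_nonneg hC₁ _)
    rw [ENNReal.ofReal_mul hc, ← ENNReal.ofReal_rpow_of_nonneg hq0 (by norm_num), hq,
      ENNReal.ofReal_toReal hqfin]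
  rw [hL, hR]
  exact ENNReal.ofReal_le_ofReal hreal

end Crest.Agent.Helper66.OT

namespace Crest.Agent.Helper66.OT

open MeasureTheory
open scoped ENNReal NNReal
open Crest.AnalysisR.OT

/-- `final_step` with the constant written as the coercion of an `ℝ≥0`, as in the statement of
S0109. -/
theorem final_step_nnreal {d : ℕ} (K : Set (EuclideanSpace ℝ (Fin d))) (hKc : IsCompact K)
    (hKi : (interior K).Nonempty)
    (Y : Set (EuclideanSpace ℝ (Fin d))) (hYc : IsCompact Y) (M : ℝ)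
    (hYM : ∀ y ∈ Y, ‖y‖ ≤ M) (C_A : ℝ) (hCA : 0 ≤ C_A) (hA : InterpA K M C_A) (C₁ : ℝ)
    (hC₁ : 0 ≤ C₁)
    (μ ν : Measure (EuclideanSpace ℝ (Fin d))) (hμ : IsProbabilityOn Y μ)
    (hν : IsProbabilityOn Y ν)
    (Tμ Tν : EuclideanSpace ℝ (Fin d) → EuclideanSpace ℝ (Fin d)) (hTμ : Measurable Tμ)
    (hTν : Measurable Tν) (hpμ : (uniformProbOn K).map Tμ = μ)
    (hpν : (uniformProbOn K).map Tν = ν)
    (φ ψ : EuclideanSpace ℝ (Fin d) → ℝ) (hφ : ContinuousOn φ K) (hψ : ContinuousOn ψ K)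
    (hsμ : ∀ᵐ x ∂(uniformProbOn K), ∀ z ∈ K, φ x + inner ℝ (Tμ x) (z - x) ≤ φ z)
    (hsν : ∀ᵐ x ∂(uniformProbOn K), ∀ z ∈ K, ψ x + inner ℝ (Tν x) (z - x) ≤ ψ z)
    (π : Measure (EuclideanSpace ℝ (Fin d) × EuclideanSpace ℝ (Fin d)))
    (hπ : IsPairCoupling μ ν π)
    (hB : ∫ x, (φ x - ψ x) ^ 2 ∂(uniformProbOn K) ≤ C₁ * (quadCost π).toReal) :
    ∫⁻ x, ‖Tμ x - Tν x‖ₑ ^ 2 ∂(uniformProbOn K)
      ≤ ((Real.toNNReal (C_A * ((volume K).toReal) ^ (-(2 / 3 : ℝ)) * C₁ ^ (1 / 3 : ℝ)) : ℝ≥0) :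
            ℝ≥0∞) * quadCost π ^ (1 / 3 : ℝ) :=
  final_step K hKc hKi Y hYc M hYM C_A hCA hA C₁ hC₁ μ ν hμ hν Tμ Tν hTμ hTν hpμ hpν φ ψ hφ hψ
    hsμ hsν π hπ hB

end Crest.Agent.Helper66.OT
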